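import Mathlib
import Vale.Agent.Helper18.P252.OneDim

/-!
# P252 (affine Bernstein problem): radially symmetric solutions are quadratic

Let `n ≥ 2` and let `u(x) = h(|x|²/2)` on a ball centred at the origin (or on all of `ℝ^n`),
with `h` of class `C^4`.  If the Hessian of `u` is positive definite and `u` solves the affine
maximal equation (AM) there, then `h(s) = a s + h(0)` with `a > 0`, i.e. `u` is the quadratic
polynomial `a |x|²/2 + h(0)`.
-/

namespace Vale.Agent.Results.P252.RadialBall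

open Finset Filter Topology Matrix

variable {n : ℕ}

/-- Partial derivative `∂_i u (x)`: the derivative at `t = x i` of
`t ↦ u (x with its i-th coordinate replaced by t)`. -/
noncomputable def pd (i : Fin n) (u : (Fin n → ℝ) → ℝ) (x : Fin n → ℝ) : ℝ :=
  deriv (fun t => u (Function.update x i t)) (x i)

/-- The Hessian matrix `D²u (x) = (∂_i ∂_j u (x))_{ij}`. -/
noncomputable def hess (u : (Fin n → ℝ) → ℝ) (x : Fin n → ℝ) : Matrix (Fin n) (Fin n) ℝ :=
  Matrix.of fun i j => pd i (pd j u) x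

/-- `w = (det D²u)^{-(n+1)/(n+2)}`. -/
noncomputable def wfun (u : (Fin n → ℝ) → ℝ) (x : Fin n → ℝ) : ℝ :=
  (hess u x).det ^ (-((n : ℝ) + 1) / ((n : ℝ) + 2))

/-- The left-hand side of the affine maximal equation (AM):
`∑_{i,j} U^{ij} ∂_{ij} w`, where `U = det(D²u) (D²u)⁻¹`. -/
noncomputable def affineMaximalOp (u : (Fin n → ℝ) → ℝ) (x : Fin n → ℝ) : ℝ :=
  ∑ i, ∑ j, ((hess u x).det • (hess u x)⁻¹) i j * pd i (pd j (wfun u)) x

/-- `|x|²/2` -/
noncomputable def hsq (x : Fin n → ℝ) : ℝ := (∑ k, x k ^ 2) / 2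

/-! ### Derivatives of radial functions -/

theorem hsq_update (x : Fin n → ℝ) (i : Fin n) (t : ℝ) :
    hsq (Function.update x i t) = (t ^ 2 + ∑ k ∈ univ.erase i, x k ^ 2) / 2 := by
  unfold hsq
  rw [← Finset.add_sum_erase _ _ (mem_univ i), Function.update_self]
  congr 2
  apply Finset.sum_congr rfl
  intro k hk
  rw [Function.update_of_ne (Finset.ne_of_mem_erase hk)]

theorem hasDerivAt_hsq_update (x : Fin n → ℝ) (i : Fin n) (t : ℝ) :
    HasDerivAt (fun t => hsq (Function.update x i t)) t t := by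
  have h1 : (fun t => hsq (Function.update x i t)) =
      fun t => (t ^ 2 + ∑ k ∈ univ.erase i, x k ^ 2) / 2 := funext (hsq_update x i)
  rw [h1]
  have h2 : HasDerivAt (fun t : ℝ => t ^ 2) (2 * t) t := by simpa using hasDerivAt_pow 2 t
  have h3 := (h2.add_const (∑ k ∈ univ.erase i, x k ^ 2)).div_const 2
  exact h3.congr_deriv (by ring)

theorem rad_pd (I : Set ℝ) (hIo : IsOpen I) (F : ℝ → ℝ) (v : (Fin n → ℝ) → ℝ)
    (hv : ∀ y, hsq y ∈ I → v y = F (hsq y)) (x : Fin n → ℝ) (hx : hsq x ∈ I)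
    (hF : DifferentiableAt ℝ F (hsq x)) (j : Fin n) :
    pd j v x = deriv F (hsq x) * x j := by
  unfold pd
  have hq := hasDerivAt_hsq_update x j (x j)
  have hxx : Function.update x j (x j) = x := Function.update_eq_self j x
  have hev : (fun t => v (Function.update x j t)) =ᶠ[𝓝 (x j)]
      fun t => F (hsq (Function.update x j t)) := by
    have hmem : ∀ᶠ t in 𝓝 (x j), hsq (Function.update x j t) ∈ I :=
      hq.continuousAt.eventually_mem (hIo.mem_nhds (by rw [hxx]; exact hx))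
    filter_upwards [hmem] with t ht
    exact hv _ ht
  rw [hev.deriv_eq]
  have hF' : HasDerivAt F (deriv F (hsq x)) (hsq (Function.update x j (x j))) := by
    rw [hxx]
    exact hF.hasDerivAt
  have hcomp : HasDerivAt (fun t => F (hsq (Function.update x j t)))
      (deriv F (hsq x) * x j) (x j) := HasDerivAt.comp (x j) hF' hq
  exact hcomp.deriv

theorem rad_pd_pd (I : Set ℝ) (hIo : IsOpen I) (F : ℝ → ℝ) (v : (Fin n → ℝ) → ℝ)
    (hv : ∀ y, hsq y ∈ I → v y = F (hsq y)) (x : Fin n → ℝ) (hx : hsq x ∈ I)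
    (hF1 : ∀ y : Fin n → ℝ, hsq y ∈ I → DifferentiableAt ℝ F (hsq y))
    (hF2 : DifferentiableAt ℝ (deriv F) (hsq x)) (i j : Fin n) :
    pd i (pd j v) x =
      deriv (deriv F) (hsq x) * x i * x j + deriv F (hsq x) * (if i = j then 1 else 0) := by
  have hq := hasDerivAt_hsq_update x i (x i)
  have hxx : Function.update x i (x i) = x := Function.update_eq_self i x
  have hev : (fun t => pd j v (Function.update x i t)) =ᶠ[𝓝 (x i)]
      fun t => deriv F (hsq (Function.update x i t)) * Function.update x i t j := by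
    have hmem : ∀ᶠ t in 𝓝 (x i), hsq (Function.update x i t) ∈ I :=
      hq.continuousAt.eventually_mem (hIo.mem_nhds (by rw [hxx]; exact hx))
    filter_upwards [hmem] with t ht
    exact rad_pd I hIo F v hv _ ht (hF1 _ ht) j
  have h1 : pd i (pd j v) x = deriv (fun t => pd j v (Function.update x i t)) (x i) := rfl
  rw [h1, hev.deriv_eq]
  have hA : HasDerivAt (fun t => deriv F (hsq (Function.update x i t)))
      (deriv (deriv F) (hsq x) * x i) (x i) := by
    have hF' : HasDerivAt (deriv F) (deriv (deriv F) (hsq x))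
        (hsq (Function.update x i (x i))) := by
      rw [hxx]
      exact hF2.hasDerivAt
    exact HasDerivAt.comp (x i) hF' hq
  have hB : HasDerivAt (fun t => Function.update x i t j) (if i = j then 1 else 0) (x i) := by
    by_cases hij : i = j
    · subst hij
      simp only [Function.update_self, if_true]
      exact hasDerivAt_id (x i)
    · have : (fun t => Function.update x i t j) = fun _ => x j := by
        funext t
        rw [Function.update_of_ne (Ne.symm hij)]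
      rw [this, if_neg hij]
      exact hasDerivAt_const _ _
  have hprod : HasDerivAt
      (fun t => deriv F (hsq (Function.update x i t)) * Function.update x i t j)
      (deriv (deriv F) (hsq x) * x i * Function.update x i (x i) j +
        deriv F (hsq (Function.update x i (x i))) * (if i = j then 1 else 0)) (x i) :=
    hA.mul hB
  rw [hprod.deriv, hxx]

/-- The Hessian of a radial function. -/
theorem hess_rad (I : Set ℝ) (hIo : IsOpen I) (h : ℝ → ℝ)
    (hd1 : ∀ s ∈ I, DifferentiableAt ℝ h s) (hd2 : ∀ s ∈ I, DifferentiableAt ℝ (deriv h) s)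
    (x : Fin n → ℝ) (hx : hsq x ∈ I) :
    hess (fun y => h (hsq y)) x =
      deriv h (hsq x) • (1 : Matrix (Fin n) (Fin n) ℝ) +
        deriv (deriv h) (hsq x) • vecMulVec x x := by
  ext i j
  simp only [hess, Matrix.of_apply]
  rw [rad_pd_pd I hIo h (fun y => h (hsq y)) (fun y _ => rfl) x hx (fun y hy => hd1 _ hy)
    (hd2 _ hx) i j]
  simp only [Matrix.add_apply, Matrix.smul_apply, Matrix.one_apply, Matrix.vecMulVec_apply,
    smul_eq_mul]
  split_ifs <;> ring

/-! ### Rank-one perturbations of a multiple of the identity -/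

theorem dot_self_eq (x : Fin n → ℝ) : x ⬝ᵥ x = 2 * hsq x := by
  unfold hsq
  simp only [dotProduct]
  rw [mul_div_cancel₀ _ (two_ne_zero)]
  exact Finset.sum_congr rfl (fun k _ => (sq (x k)).symm)

theorem det_rank_one (hn : 1 ≤ n) (a b : ℝ) (ha : a ≠ 0) (x : Fin n → ℝ) :
    (a • (1 : Matrix (Fin n) (Fin n) ℝ) + b • vecMulVec x x).det =
      a ^ (n - 1) * (a + b * (x ⬝ᵥ x)) := by
  have h1 : a • (1 : Matrix (Fin n) (Fin n) ℝ) + b • vecMulVec x x =
      a • (1 + replicateCol Unit ((b / a) • x) * replicateRow Unit x) := by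
    rw [← vecMulVec_eq Unit, smul_vecMulVec, smul_add, smul_smul, mul_div_cancel₀ _ ha]
  rw [h1, det_smul, det_one_add_replicateCol_mul_replicateRow, Fintype.card_fin,
    dotProduct_smul, smul_eq_mul]
  obtain ⟨m, rfl⟩ : ∃ m, n = m + 1 := ⟨n - 1, by omega⟩
  simp only [Nat.add_sub_cancel]
  rw [pow_succ]
  field_simp

theorem inv_rank_one (a b : ℝ) (ha : a ≠ 0) (x : Fin n → ℝ) (hab : a + b * (x ⬝ᵥ x) ≠ 0) :
    (a • (1 : Matrix (Fin n) (Fin n) ℝ) + b • vecMulVec x x)⁻¹ =
      a⁻¹ • (1 : Matrix (Fin n) (Fin n) ℝ) -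
        (b / (a * (a + b * (x ⬝ᵥ x)))) • vecMulVec x x := by
  apply Matrix.inv_eq_right_inv
  have hXX : vecMulVec x x * vecMulVec x x = (x ⬝ᵥ x) • vecMulVec x x := by
    rw [vecMulVec_mul_vecMulVec, vecMulVec_smul]
  simp only [Matrix.add_mul, Matrix.mul_sub, Matrix.smul_mul, Matrix.mul_smul, Matrix.one_mul,
    Matrix.mul_one, hXX]
  have key : a⁻¹ • (a • (1 : Matrix (Fin n) (Fin n) ℝ) + b • vecMulVec x x) -
      (b / (a * (a + b * (x ⬝ᵥ x)))) •
        (a • vecMulVec x x + b • (x ⬝ᵥ x) • vecMulVec x x) =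
      (a * a⁻¹) • (1 : Matrix (Fin n) (Fin n) ℝ) +
        (b * a⁻¹ - a * (b / (a * (a + b * (x ⬝ᵥ x)))) -
          b * (b / (a * (a + b * (x ⬝ᵥ x)))) * (x ⬝ᵥ x)) • vecMulVec x x := by
    module
  rw [key, mul_inv_cancel₀ ha, one_smul]
  have hz : b * a⁻¹ - a * (b / (a * (a + b * (x ⬝ᵥ x)))) -
      b * (b / (a * (a + b * (x ⬝ᵥ x)))) * (x ⬝ᵥ x) = 0 := by
    field_simp
    ring
  rw [hz, zero_smul, add_zero]

/-- The double sum in (AM) for two matrices of the form `α 1 + β x xᵀ`. -/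
theorem sum_rank_one (α β c d : ℝ) (x : Fin n → ℝ) :
    ∑ i, ∑ j, (α • (1 : Matrix (Fin n) (Fin n) ℝ) + β • vecMulVec x x) i j *
        (d * x i * x j + c * (if i = j then 1 else 0)) =
      α * c * n + (α * d + β * c + β * d * (x ⬝ᵥ x)) * (x ⬝ᵥ x) := by
  have hM : ∀ i j, d * x i * x j + c * (if i = j then 1 else 0) =
      (c • (1 : Matrix (Fin n) (Fin n) ℝ) + d • vecMulVec x x)ᵀ j i := by
    intro i j
    simp only [Matrix.transpose_apply, Matrix.add_apply, Matrix.smul_apply, Matrix.one_apply,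
      Matrix.vecMulVec_apply, smul_eq_mul]
    split_ifs <;> ring
  have htr : ∑ i, ∑ j, (α • (1 : Matrix (Fin n) (Fin n) ℝ) + β • vecMulVec x x) i j *
        (d * x i * x j + c * (if i = j then 1 else 0)) =
      Matrix.trace ((α • (1 : Matrix (Fin n) (Fin n) ℝ) + β • vecMulVec x x) *
        (c • (1 : Matrix (Fin n) (Fin n) ℝ) + d • vecMulVec x x)ᵀ) := by
    simp only [Matrix.trace, Matrix.diag_apply, Matrix.mul_apply]
    exact Finset.sum_congr rfl (fun i _ => Finset.sum_congr rfl (fun j _ => by rw [hM i j]))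
  rw [htr]
  have hXX : vecMulVec x x * vecMulVec x x = (x ⬝ᵥ x) • vecMulVec x x := by
    rw [vecMulVec_mul_vecMulVec, vecMulVec_smul]
  rw [Matrix.transpose_add, Matrix.transpose_smul, Matrix.transpose_smul, Matrix.transpose_one,
    transpose_vecMulVec]
  simp only [Matrix.add_mul, Matrix.mul_add, Matrix.smul_mul, Matrix.mul_smul, Matrix.one_mul,
    Matrix.mul_one, hXX, Matrix.trace_add, Matrix.trace_smul, Matrix.trace_one,
    trace_vecMulVec, Fintype.card_fin, smul_eq_mul]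
  ring

/-- derivative of a power `f ^ (m+1)` -/
theorem hasDerivAt_pow_succ (f : ℝ → ℝ) (f' s : ℝ) (m : ℕ) (hf : HasDerivAt f f' s) :
    HasDerivAt (fun t => f t ^ (m + 1)) (((m : ℝ) + 1) * f s ^ m * f') s := by
  have h : HasDerivAt (fun t => f t ^ (m + 1)) (((m + 1 : ℕ) : ℝ) * f s ^ (m + 1 - 1) * f') s :=
    hf.pow (m + 1)
  refine h.congr_deriv ?_
  simp

/-- the algebra behind the radial form of (AM) -/
theorem am_algebra (Δ A B b c d s N : ℝ) (hA : A ≠ 0) (hB : B ≠ 0)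
    (hBdef : B = A + 2 * s * b) :
    Δ * A⁻¹ * c * N + (Δ * A⁻¹ * d + -(Δ * (b / (A * B))) * c +
        -(Δ * (b / (A * B))) * d * (2 * s)) * (2 * s) =
      Δ / (A * B) * (N * A * c + 2 * s * A * d + 2 * (N - 1) * s * b * c) := by
  field_simp
  rw [hBdef]
  ring

/-- **Radially symmetric solutions of the affine maximal equation are quadratic.**
Let `n ≥ 2`, let `I ⊆ ℝ` be an open interval containing `0`, and let `u(x) = h(|x|²/2)` on the
set `{x : |x|²/2 ∈ I}` (a ball centred at the origin, or all of `ℝ^n`), with `h` of class `C^4`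
on `I`.  If the Hessian of `u` is positive definite and `u` solves (AM) at every point of this
set, then `h(s) = a s + h(0)` for all `s ≥ 0` in `I`, with `a > 0`. -/
theorem result (n : ℕ) (hn : 2 ≤ n) (I : Set ℝ) (hIo : IsOpen I) (hIc : I.OrdConnected)
    (hI0 : (0 : ℝ) ∈ I) (h : ℝ → ℝ) (hreg : ContDiffOn ℝ 4 h I)
    (hpd : ∀ x : Fin n → ℝ, (∑ k, x k ^ 2) / 2 ∈ I →
      (hess (fun y => h ((∑ k, y k ^ 2) / 2)) x).PosDef)
    (hAM : ∀ x : Fin n → ℝ, (∑ k, x k ^ 2) / 2 ∈ I →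
      affineMaximalOp (fun y => h ((∑ k, y k ^ 2) / 2)) x = 0) :
    ∃ a : ℝ, 0 < a ∧ ∀ s ∈ I, 0 ≤ s → h s = a * s + h 0 := by
  obtain ⟨k, rfl⟩ : ∃ k, n = k + 2 := ⟨n - 2, by omega⟩
  have hpd' : ∀ x : Fin (k + 2) → ℝ, hsq x ∈ I → (hess (fun y => h (hsq y)) x).PosDef := hpd
  have hAM' : ∀ x : Fin (k + 2) → ℝ, hsq x ∈ I →
      affineMaximalOp (fun y => h (hsq y)) x = 0 := hAM
  set e : ℝ := -(((k + 2 : ℕ) : ℝ) + 1) / (((k + 2 : ℕ) : ℝ) + 2) with he
  have he0 : e ≠ 0 := by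
    have h1 : (0 : ℝ) < ((k + 2 : ℕ) : ℝ) + 2 := by positivity
    have h2 : (0 : ℝ) < ((k + 2 : ℕ) : ℝ) + 1 := by positivity
    rw [he]
    exact div_ne_zero (by linarith) h1.ne'
  -- regularity of h
  have h43 : ((3 : ℕ) : WithTop ℕ∞) + 1 = 4 := by norm_num
  have h32 : ((2 : ℕ) : WithTop ℕ∞) + 1 = 3 := by norm_num
  have h21 : ((1 : ℕ) : WithTop ℕ∞) + 1 = 2 := by norm_num
  have hh3 : ContDiffOn ℝ 3 (deriv h) I := by
    have := Vale.Agent.Helper18.P252.cdo_deriv hIo (f := h) (m := 3) (by rw [h43]; exact hreg)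
    exact_mod_cast this
  have hh2 : ContDiffOn ℝ 2 (deriv (deriv h)) I := by
    have := Vale.Agent.Helper18.P252.cdo_deriv hIo (f := deriv h) (m := 2)
      (by rw [h32]; exact hh3)
    exact_mod_cast this
  have hd1 : ∀ s ∈ I, DifferentiableAt ℝ h s := fun s hs =>
    (hreg.differentiableOn (by norm_num)).differentiableAt (hIo.mem_nhds hs)
  have hd2 : ∀ s ∈ I, DifferentiableAt ℝ (deriv h) s := fun s hs =>
    (hh3.differentiableOn (by norm_num)).differentiableAt (hIo.mem_nhds hs)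
  set a : ℝ → ℝ := deriv h with hadef
  set b : ℝ → ℝ := deriv (deriv h) with hbdef
  have hH : ∀ x : Fin (k + 2) → ℝ, hsq x ∈ I → hess (fun y => h (hsq y)) x =
      a (hsq x) • (1 : Matrix (Fin (k + 2)) (Fin (k + 2)) ℝ) + b (hsq x) • vecMulVec x x :=
    fun x hx => hess_rad I hIo h hd1 hd2 x hx
  -- axis points
  set i0 : Fin (k + 2) := ⟨0, by omega⟩ with hi0
  set i1 : Fin (k + 2) := ⟨1, by omega⟩ with hi1
  have hi10 : i1 ≠ i0 := by
    intro hEq
    have := congrArg Fin.val hEq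
    simp [hi0, hi1] at this
  have hxs : ∀ s : ℝ, 0 ≤ s →
      hsq (Pi.single i0 (Real.sqrt (2 * s)) : Fin (k + 2) → ℝ) = s := by
    intro s hs
    unfold hsq
    rw [Finset.sum_eq_single i0]
    · rw [Pi.single_eq_same, Real.sq_sqrt (by linarith)]
      ring
    · intro j _ hj
      rw [Pi.single_eq_of_ne hj]
      ring
    · intro hmem
      exact absurd (mem_univ i0) hmem
  have hsq_nonneg : ∀ x : Fin (k + 2) → ℝ, 0 ≤ hsq x := fun x =>
    div_nonneg (Finset.sum_nonneg (fun i _ => sq_nonneg _)) (by norm_num)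
  -- positivity of the two eigenvalues
  have hpos : ∀ s ∈ I, 0 ≤ s → 0 < a s ∧ 0 < a s + 2 * s * b s := by
    intro s hsI hs
    set x : Fin (k + 2) → ℝ := Pi.single i0 (Real.sqrt (2 * s)) with hxdef
    have hx : hsq x = s := hxs s hs
    have hxI : hsq x ∈ I := by rw [hx]; exact hsI
    have hP : (a s • (1 : Matrix (Fin (k + 2)) (Fin (k + 2)) ℝ) +
        b s • vecMulVec x x).PosDef := by
      have h1 := hH x hxI
      rw [hx] at h1
      rw [← h1]
      exact hpd' x hxI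
    have hent : ∀ i : Fin (k + 2), 0 < (a s • (1 : Matrix (Fin (k + 2)) (Fin (k + 2)) ℝ) +
        b s • vecMulVec x x) i i := by
      intro i
      have h1 := hP.dotProduct_mulVec_pos (x := Pi.single i 1) (by simp)
      rw [star_trivial, Matrix.mulVec_single_one, single_one_dotProduct] at h1
      exact h1
    constructor
    · have h1 := hent i1
      simp only [Matrix.add_apply, Matrix.smul_apply, Matrix.one_apply_eq,
        Matrix.vecMulVec_apply, smul_eq_mul, hxdef, Pi.single_eq_of_ne hi10] at h1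
      linarith
    · have h0 := hent i0
      simp only [Matrix.add_apply, Matrix.smul_apply, Matrix.one_apply_eq,
        Matrix.vecMulVec_apply, smul_eq_mul, hxdef, Pi.single_eq_same] at h0
      rw [Real.mul_self_sqrt (by linarith)] at h0
      linarith
  -- the determinant and the function w
  set D : ℝ → ℝ := fun s => a s ^ (k + 1) * (a s + 2 * s * b s) with hDdef
  set W : ℝ → ℝ := fun s => (D s) ^ e with hWdef
  have hDpos : ∀ s ∈ I, 0 ≤ s → 0 < D s := fun s hsI hs =>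
    mul_pos (pow_pos (hpos s hsI hs).1 _) (hpos s hsI hs).2
  have hdet : ∀ x : Fin (k + 2) → ℝ, hsq x ∈ I →
      (hess (fun y => h (hsq y)) x).det = D (hsq x) := by
    intro x hx
    rw [hH x hx, det_rank_one (by omega) _ _ (hpos _ hx (hsq_nonneg x)).1.ne', dot_self_eq]
    have h1 : k + 2 - 1 = k + 1 := rfl
    rw [h1]
    simp only [hDdef]
    ring
  have hwv : ∀ y : Fin (k + 2) → ℝ, hsq y ∈ I →
      wfun (fun y => h (hsq y)) y = W (hsq y) := by
    intro y hy
    unfold wfun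
    rw [hdet y hy]
  -- regularity of W near the nonnegative points of I
  have ha2 : ContDiffOn ℝ 2 a I := hh3.of_le (by norm_num)
  have hD2 : ContDiffOn ℝ 2 D I :=
    (ha2.pow (k + 1)).mul (ha2.add ((contDiffOn_const.mul contDiffOn_id).mul hh2))
  set U : Set ℝ := I ∩ D ⁻¹' (Set.Ioi 0) with hUdef
  have hUo : IsOpen U := hD2.continuousOn.isOpen_inter_preimage hIo isOpen_Ioi
  have hUmem : ∀ s ∈ I, 0 ≤ s → s ∈ U := fun s hsI hs => ⟨hsI, hDpos s hsI hs⟩
  have hW2 : ContDiffOn ℝ 2 W U :=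
    (hD2.mono Set.inter_subset_left).rpow_const_of_ne (fun s hs => (ne_of_gt hs.2))
  have hW1 : ContDiffOn ℝ 1 (deriv W) U := by
    have := Vale.Agent.Helper18.P252.cdo_deriv hUo (f := W) (m := 1) (by rw [h21]; exact hW2)
    exact_mod_cast this
  have hWd1 : ∀ s ∈ U, DifferentiableAt ℝ W s := fun s hs =>
    (hW2.differentiableOn (by norm_num)).differentiableAt (hUo.mem_nhds hs)
  have hWd2 : ∀ s ∈ U, DifferentiableAt ℝ (deriv W) s := fun s hs =>
    (hW1.differentiableOn (by norm_num)).differentiableAt (hUo.mem_nhds hs)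
  set c : ℝ → ℝ := deriv W with hcdef
  set d : ℝ → ℝ := deriv (deriv W) with hddef
  have hw2 : ∀ x : Fin (k + 2) → ℝ, hsq x ∈ I → ∀ i j,
      pd i (pd j (wfun (fun y => h (hsq y)))) x =
        d (hsq x) * x i * x j + c (hsq x) * (if i = j then 1 else 0) := by
    intro x hx i j
    exact rad_pd_pd I hIo W (wfun (fun y => h (hsq y))) hwv x hx
      (fun y hy => hWd1 _ (hUmem _ hy (hsq_nonneg y)))
      (hWd2 _ (hUmem _ hx (hsq_nonneg x))) i j
  -- the radial form of (AM)
  have hE : ∀ s ∈ I, 0 ≤ s →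
      ((k : ℝ) + 2) * a s * c s + 2 * s * a s * d s + 2 * ((k : ℝ) + 1) * s * b s * c s = 0 := by
    intro s hsI hs
    set x : Fin (k + 2) → ℝ := Pi.single i0 (Real.sqrt (2 * s)) with hxdef
    have hx : hsq x = s := hxs s hs
    have hxI : hsq x ∈ I := by rw [hx]; exact hsI
    obtain ⟨ha, hab⟩ := hpos s hsI hs
    have hρ : x ⬝ᵥ x = 2 * s := by rw [dot_self_eq, hx]
    have hab' : a s + b s * (x ⬝ᵥ x) ≠ 0 := by
      rw [hρ]
      have : a s + b s * (2 * s) = a s + 2 * s * b s := by ring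
      rw [this]
      exact hab.ne'
    have h0 := hAM' x hxI
    unfold affineMaximalOp at h0
    rw [hH x hxI, hx] at h0
    set Δ : ℝ := (a s • (1 : Matrix (Fin (k + 2)) (Fin (k + 2)) ℝ) +
      b s • vecMulVec x x).det with hΔ
    have hΔpos : 0 < Δ := by
      rw [hΔ, det_rank_one (by omega) _ _ ha.ne', hρ]
      have h1 : a s + b s * (2 * s) = a s + 2 * s * b s := by ring
      rw [h1]
      exact mul_pos (pow_pos ha _) hab
    set γ : ℝ := b s / (a s * (a s + b s * (x ⬝ᵥ x))) with hγ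
    have hmat : Δ • (a s • (1 : Matrix (Fin (k + 2)) (Fin (k + 2)) ℝ) +
        b s • vecMulVec x x)⁻¹ =
        (Δ * (a s)⁻¹) • (1 : Matrix (Fin (k + 2)) (Fin (k + 2)) ℝ) +
          (-(Δ * γ)) • vecMulVec x x := by
      rw [inv_rank_one _ _ ha.ne' x hab']
      module
    rw [hmat] at h0
    have h1 : ∑ i, ∑ j, ((Δ * (a s)⁻¹) • (1 : Matrix (Fin (k + 2)) (Fin (k + 2)) ℝ) +
          (-(Δ * γ)) • vecMulVec x x) i j *
          pd i (pd j (wfun (fun y => h (hsq y)))) x =
        ∑ i, ∑ j, ((Δ * (a s)⁻¹) • (1 : Matrix (Fin (k + 2)) (Fin (k + 2)) ℝ) +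
          (-(Δ * γ)) • vecMulVec x x) i j *
          (d s * x i * x j + c s * (if i = j then 1 else 0)) := by
      apply Finset.sum_congr rfl
      intro i _
      apply Finset.sum_congr rfl
      intro j _
      rw [hw2 x hxI i j, hx]
    rw [h1, sum_rank_one, hρ] at h0
    have hγ' : γ = b s / (a s * (a s + 2 * s * b s)) := by
      rw [hγ, hρ]
      have : a s + b s * (2 * s) = a s + 2 * s * b s := by ring
      rw [this]
    rw [hγ'] at h0
    rw [am_algebra Δ (a s) (a s + 2 * s * b s) (b s) (c s) (d s) s ((k + 2 : ℕ) : ℝ) ha.ne'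
      hab.ne' rfl] at h0
    have hcast : ((k + 2 : ℕ) : ℝ) * a s * c s + 2 * s * a s * d s +
        2 * (((k + 2 : ℕ) : ℝ) - 1) * s * b s * c s =
        ((k : ℝ) + 2) * a s * c s + 2 * s * a s * d s + 2 * ((k : ℝ) + 1) * s * b s * c s := by
      push_cast
      ring
    rw [hcast] at h0
    rcases mul_eq_zero.mp h0 with hz | hz
    · exact absurd hz (div_pos hΔpos (mul_pos ha hab)).ne'
    · exact hz
  -- first integral: W' = 0
  have hQder : ∀ s ∈ I, 0 ≤ s →
      HasDerivAt (fun t => t ^ (k + 2) * (a t ^ (k + 1)) ^ 2 * c t ^ 2) 0 s := by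
    intro s hsI hs
    have hsU := hUmem s hsI hs
    have p1 : HasDerivAt (fun t : ℝ => t ^ (k + 1 + 1)) ((((k + 1 : ℕ) : ℝ) + 1) * s ^ (k + 1) * 1) s :=
      hasDerivAt_pow_succ (fun t => t) 1 s (k + 1) (hasDerivAt_id s)
    have p2 : HasDerivAt (fun t => a t ^ (k + 1)) (((k : ℝ) + 1) * a s ^ k * b s) s :=
      hasDerivAt_pow_succ a (b s) s k (hd2 s hsI).hasDerivAt
    have p2' : HasDerivAt (fun t => (a t ^ (k + 1)) ^ (1 + 1))
        ((((1 : ℕ) : ℝ) + 1) * (a s ^ (k + 1)) ^ 1 * (((k : ℝ) + 1) * a s ^ k * b s)) s :=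
      hasDerivAt_pow_succ (fun t => a t ^ (k + 1)) _ s 1 p2
    have p3 : HasDerivAt (fun t => c t ^ (1 + 1)) ((((1 : ℕ) : ℝ) + 1) * c s ^ 1 * d s) s :=
      hasDerivAt_pow_succ c (d s) s 1 (hWd2 s hsU).hasDerivAt
    have hall := (p1.mul p2').mul p3
    refine hall.congr_deriv ?_
    have hEs := hE s hsI hs
    have hfact : ((((k + 1 : ℕ) : ℝ) + 1) * s ^ (k + 1) * 1 * (a s ^ (k + 1)) ^ (1 + 1) +
        s ^ (k + 1 + 1) * ((((1 : ℕ) : ℝ) + 1) * (a s ^ (k + 1)) ^ 1 *
          (((k : ℝ) + 1) * a s ^ k * b s))) * c s ^ (1 + 1) +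
        s ^ (k + 1 + 1) * (a s ^ (k + 1)) ^ (1 + 1) * ((((1 : ℕ) : ℝ) + 1) * c s ^ 1 * d s) =
        s ^ (k + 1) * a s ^ k * a s ^ (k + 1) * c s *
          (((k : ℝ) + 2) * a s * c s + 2 * s * a s * d s +
            2 * ((k : ℝ) + 1) * s * b s * c s) := by
      push_cast
      ring
    have hz : s ^ (k + 1) * a s ^ k * a s ^ (k + 1) * c s *
          (((k : ℝ) + 2) * a s * c s + 2 * s * a s * d s +
            2 * ((k : ℝ) + 1) * s * b s * c s) = 0 := by
      rw [hEs, mul_zero]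
    refine Eq.trans ?_ hz
    exact hfact
  have hconstI : ∀ (G : ℝ → ℝ), (∀ s ∈ I, 0 ≤ s → HasDerivAt G 0 s) →
      ∀ s ∈ I, 0 ≤ s → G s = G 0 := by
    intro G hG s hsI hs
    have hsub : ∀ t ∈ Set.Icc 0 s, t ∈ I := fun t ht => hIc.out hI0 hsI ht
    exact constant_of_has_deriv_right_zero
      (fun t ht => (hG t (hsub t ht) ht.1).continuousAt.continuousWithinAt)
      (fun t ht => (hG t (hsub t ⟨ht.1, ht.2.le⟩) ht.1).hasDerivWithinAt) s
      ⟨hs, le_rfl⟩
  have hc0 : ∀ s ∈ I, 0 ≤ s → c s = 0 := by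
    intro s hsI hs
    rcases eq_or_lt_of_le hs with hs0 | hs0
    · have h1 := hE s hsI hs
      rw [← hs0] at h1 ⊢
      have ha := (hpos 0 hI0 le_rfl).1
      have h2 : ((k : ℝ) + 2) * a 0 * c 0 = 0 := by linarith
      have h3 : ((k : ℝ) + 2) * a 0 ≠ 0 := by positivity
      exact (mul_eq_zero.mp h2).resolve_left h3
    · have h1 := hconstI _ hQder s hsI hs
      beta_reduce at h1
      rw [zero_pow (by omega), zero_mul, zero_mul] at h1
      have ha := (hpos s hsI hs).1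
      have h2 : s ^ (k + 2) * (a s ^ (k + 1)) ^ 2 ≠ 0 := by positivity
      have h3 : c s ^ 2 = 0 := (mul_eq_zero.mp h1).resolve_left h2
      exact pow_eq_zero_iff (two_ne_zero) |>.mp h3
  -- hence the determinant is constant
  have hDC : ∀ s ∈ I, 0 ≤ s → D s = D 0 := by
    intro s hsI hs
    have hWder : ∀ t ∈ I, 0 ≤ t → HasDerivAt W 0 t := by
      intro t htI ht
      have h1 := (hWd1 t (hUmem t htI ht)).hasDerivAt
      have h2 : deriv W t = 0 := hc0 t htI ht
      rw [h2] at h1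
      exact h1
    have h1 : (D s) ^ e = (D 0) ^ e := hconstI W hWder s hsI hs
    exact Real.rpow_left_injOn he0 (hDpos s hsI hs).le (hDpos 0 hI0 le_rfl).le h1
  have hD0 : D 0 = a 0 ^ (k + 2) := by
    simp only [hDdef]
    ring
  -- second first integral: h' is constant
  have hZder : ∀ s ∈ I, 0 ≤ s →
      HasDerivAt (fun t => t ^ (k + 2) * (a t ^ (k + 2) - D 0) ^ 2) 0 s := by
    intro s hsI hs
    have p1 : HasDerivAt (fun t : ℝ => t ^ (k + 1 + 1)) ((((k + 1 : ℕ) : ℝ) + 1) * s ^ (k + 1) * 1) s :=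
      hasDerivAt_pow_succ (fun t => t) 1 s (k + 1) (hasDerivAt_id s)
    have p2 : HasDerivAt (fun t => a t ^ (k + 1 + 1) - D 0)
        ((((k + 1 : ℕ) : ℝ) + 1) * a s ^ (k + 1) * b s) s :=
      (hasDerivAt_pow_succ a (b s) s (k + 1) (hd2 s hsI).hasDerivAt).sub_const (D 0)
    have p2' : HasDerivAt (fun t => (a t ^ (k + 1 + 1) - D 0) ^ (1 + 1))
        ((((1 : ℕ) : ℝ) + 1) * (a s ^ (k + 1 + 1) - D 0) ^ 1 *
          ((((k + 1 : ℕ) : ℝ) + 1) * a s ^ (k + 1) * b s)) s :=
      hasDerivAt_pow_succ (fun t => a t ^ (k + 1 + 1) - D 0) _ s 1 p2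
    have hall := p1.mul p2'
    refine hall.congr_deriv ?_
    have hDs := hDC s hsI hs
    have hfact : (((k + 1 : ℕ) : ℝ) + 1) * s ^ (k + 1) * 1 * (a s ^ (k + 1 + 1) - D 0) ^ (1 + 1) +
        s ^ (k + 1 + 1) * ((((1 : ℕ) : ℝ) + 1) * (a s ^ (k + 1 + 1) - D 0) ^ 1 *
          ((((k + 1 : ℕ) : ℝ) + 1) * a s ^ (k + 1) * b s)) =
        ((k : ℝ) + 2) * s ^ (k + 1) * (a s ^ (k + 1 + 1) - D 0) * (D s - D 0) := by
      simp only [hDdef]
      push_cast
      ring
    have hz : ((k : ℝ) + 2) * s ^ (k + 1) * (a s ^ (k + 1 + 1) - D 0) * (D s - D 0) = 0 := by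
      rw [hDs, sub_self, mul_zero]
    refine Eq.trans ?_ hz
    exact hfact
  have ha0 : ∀ s ∈ I, 0 ≤ s → a s = a 0 := by
    intro s hsI hs
    rcases eq_or_lt_of_le hs with hs0 | hs0
    · rw [← hs0]
    · have h1 := hconstI _ hZder s hsI hs
      beta_reduce at h1
      rw [zero_pow (by omega), zero_mul] at h1
      have h2 : s ^ (k + 2) ≠ 0 := by positivity
      have h3 : (a s ^ (k + 2) - D 0) ^ 2 = 0 := (mul_eq_zero.mp h1).resolve_left h2
      have h4 : a s ^ (k + 2) - D 0 = 0 := pow_eq_zero_iff (two_ne_zero) |>.mp h3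
      have h5 : a s ^ (k + 2) = a 0 ^ (k + 2) := by rw [← hD0]; linarith
      exact (pow_left_inj₀ (hpos s hsI hs).1.le (hpos 0 hI0 le_rfl).1.le (by omega)).mp h5
  -- conclusion
  refine ⟨a 0, (hpos 0 hI0 le_rfl).1, fun s hsI hs => ?_⟩
  have hGder : ∀ t ∈ I, 0 ≤ t → HasDerivAt (fun t => h t - a 0 * t) 0 t := by
    intro t htI ht
    have h1 := (hd1 t htI).hasDerivAt.sub ((hasDerivAt_id t).const_mul (a 0))
    refine h1.congr_deriv ?_
    have h2 : deriv h t = a 0 := ha0 t htI ht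
    rw [h2]
    ring
  have h1 := hconstI _ hGder s hsI hs
  beta_reduce at h1
  linarith

end Vale.Agent.Results.P252.RadialBall
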