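import Mathlib
import Vale.Agent.Helper18.P252.RadialConvex

/-!
# P252 (affine Bernstein problem): Euclidean complete radial solutions over arbitrary
# convex domains

Let `n ≥ 2`, let `Ω ⊆ ℝ^n` be a nonempty open convex set and let `u(x) = h(|x|²/2)` on `Ω`, with
`h` of class `C^4` on an open set `J` of reals containing all the values `|x|²/2`, `x ∈ Ω`.
If the Hessian of `u` is positive definite on `Ω`, `u` solves the affine maximal equation (AM)
in `Ω`, and the graph of `u` over `Ω` is a closed subset of `ℝ^n × ℝ` (for a convex function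
this is Euclidean completeness of the graph), then `Ω = ℝ^n` and `u(x) = a |x|²/2 + h(0)` with
`a > 0`: the graph is an elliptic paraboloid.

The domain is not assumed to be a ball, nor to contain the centre of symmetry (the origin).
The statement uses no definition of this project: the Hessian and the left-hand side of (AM)
are written out inside the hypothesis `hsol`, where

* `u y = h ((∑ k, y k ^ 2) / 2)`;
* `pd i v y` is the derivative in the `i`-th coordinate of `v` at `y`, that is the derivative
  at `t = y i` of `t ↦ v (y with its i-th coordinate replaced by t)`;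
* `H y` is the Hessian matrix `(pd i (pd j u) y)_{ij}` of `u` at `y`;
* `w y = (det (H y)) ^ (-(n+1)/(n+2))`;
* the hypothesis at `x` is: `H x` is positive definite and
  `∑_{i,j} (det (H x) • (H x)⁻¹)_{ij} * pd i (pd j w) x = 0`.

Proof: the closed graph and the connectedness of spheres force the origin to lie in `Ω`; if
`Ω` were not everything, the theorem of the hand-in `RadialBall` on the largest centred ball
inside `Ω` would make `u` bounded along a radius ending at a point outside `Ω`, against the
closed graph.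
-/

namespace Vale.Agent.Results.P252.RadialComplete

open Finset

theorem result (n : ℕ) (hn : 2 ≤ n) (Ω : Set (Fin n → ℝ)) (hΩo : IsOpen Ω)
    (hΩc : Convex ℝ Ω) (hΩne : Ω.Nonempty) (J : Set ℝ) (hJo : IsOpen J)
    (hJ : ∀ x ∈ Ω, (∑ k, x k ^ 2) / 2 ∈ J) (h : ℝ → ℝ) (hreg : ContDiffOn ℝ 4 h J)
    (hsol : ∀ x ∈ Ω,
      let u : (Fin n → ℝ) → ℝ := fun y => h ((∑ k, y k ^ 2) / 2)
      let pd : Fin n → ((Fin n → ℝ) → ℝ) → (Fin n → ℝ) → ℝ :=
        fun i v y => deriv (fun t => v (Function.update y i t)) (y i)
      let H : (Fin n → ℝ) → Matrix (Fin n) (Fin n) ℝ :=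
        fun y => Matrix.of fun i j => pd i (pd j u) y
      let w : (Fin n → ℝ) → ℝ :=
        fun y => (H y).det ^ (-((n : ℝ) + 1) / ((n : ℝ) + 2))
      (H x).PosDef ∧ ∑ i, ∑ j, ((H x).det • (H x)⁻¹) i j * pd i (pd j w) x = 0)
    (hcl : IsClosed {p : (Fin n → ℝ) × ℝ | p.1 ∈ Ω ∧ p.2 = h ((∑ k, p.1 k ^ 2) / 2)}) :
    Ω = Set.univ ∧ ∃ a : ℝ, 0 < a ∧
      ∀ x : Fin n → ℝ, h ((∑ k, x k ^ 2) / 2) = a * ((∑ k, x k ^ 2) / 2) + h 0 :=
  Vale.Agent.Helper18.P252.radial_convex n hn Ω hΩo hΩc hΩne J hJo hJ h hreg
    (fun x hx => (hsol x hx).1) (fun x hx => (hsol x hx).2) hcl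

end Vale.Agent.Results.P252.RadialComplete
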