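import Mathlib
import Vale.Agent.Helper18.P252.OneDim

/-!
# P252 (affine Bernstein problem): Euclidean complete additively separable solutions

Let `Ω ⊆ ℝ^n` (`n ≥ 1`) be a nonempty open convex set and let `u(x) = ∑_i f_i(x_i)` on `Ω`, with
every `f_i` of class `C^4` and `f_i'' > 0` at the coordinates of the points of `Ω` (so `D²u` is
positive definite on `Ω`).  If `u` solves the affine maximal equation (AM) in `Ω` and the graph
of `u` over `Ω` is a closed subset of `ℝ^n × ℝ` (for a convex function this is Euclidean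
completeness of the graph), then `Ω = ℝ^n` and every `f_i` is a quadratic polynomial with
positive leading coefficient: the graph is an elliptic paraboloid.
-/

namespace Vale.Agent.Results.P252.SeparableComplete

open Finset Filter Topology

variable {n : ℕ}

/-- Partial derivative `∂_i u (x)`: the derivative at `t = x i` of
`t ↦ u (x with its i-th coordinate replaced by t)`. -/
noncomputable def pd (i : Fin n) (u : (Fin n → ℝ) → ℝ) (x : Fin n → ℝ) : ℝ :=
  deriv (fun t => u (Function.update x i t)) (x i)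

/-- The Hessian matrix `D²u (x) = (∂_i ∂_j u (x))_{ij}`. -/
noncomputable def hess (u : (Fin n → ℝ) → ℝ) (x : Fin n → ℝ) : Matrix (Fin n) (Fin n) ℝ :=
  Matrix.of fun i j => pd i (pd j u) x

/-- `w = (det D²u)^{-(n+1)/(n+2)}`. -/
noncomputable def wfun (u : (Fin n → ℝ) → ℝ) (x : Fin n → ℝ) : ℝ :=
  (hess u x).det ^ (-((n : ℝ) + 1) / ((n : ℝ) + 2))

/-- The left-hand side of the affine maximal equation (AM):
`∑_{i,j} U^{ij} ∂_{ij} w`, where `U = det(D²u) (D²u)⁻¹`. -/
noncomputable def affineMaximalOp (u : (Fin n → ℝ) → ℝ) (x : Fin n → ℝ) : ℝ :=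
  ∑ i, ∑ j, ((hess u x).det • (hess u x)⁻¹) i j * pd i (pd j (wfun u)) x

/-! ### Partial derivatives of separable functions -/

theorem pd_coord (i j : Fin n) (F : ℝ → ℝ) (x : Fin n → ℝ) :
    pd i (fun y => F (y j)) x = if i = j then deriv F (x i) else 0 := by
  unfold pd
  by_cases h : i = j
  · subst h
    simp [Function.update_self]
  · have : (fun t => F (Function.update x i t j)) = fun _ => F (x j) := by
      funext t
      rw [Function.update_of_ne (Ne.symm h)]
    rw [this]; simp [h]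

theorem pd_sep (f : Fin n → ℝ → ℝ) (j : Fin n) :
    pd j (fun y => ∑ i, f i (y i)) = fun x => deriv (f j) (x j) := by
  funext x
  unfold pd
  have : (fun t => ∑ i, f i (Function.update x j t i)) =
      fun t => f j t + ∑ i ∈ univ.erase j, f i (x i) := by
    funext t
    rw [← Finset.add_sum_erase _ _ (mem_univ j)]
    congr 1
    · simp
    · apply Finset.sum_congr rfl
      intro i hi
      rw [Function.update_of_ne (Finset.ne_of_mem_erase hi)]
  rw [this, deriv_add_const]

theorem hess_sep (f : Fin n → ℝ → ℝ) (x : Fin n → ℝ) :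
    hess (fun y => ∑ i, f i (y i)) x =
      Matrix.diagonal (fun i => deriv (deriv (f i)) (x i)) := by
  ext i j
  simp only [hess, Matrix.of_apply]
  rw [pd_sep, pd_coord]
  by_cases h : i = j
  · subst h; simp
  · simp [h]

theorem wfun_sep (f : Fin n → ℝ → ℝ) :
    wfun (fun y => ∑ i, f i (y i)) =
      fun x => (∏ i, deriv (deriv (f i)) (x i)) ^ (-((n : ℝ) + 1) / ((n : ℝ) + 2)) := by
  funext x
  unfold wfun
  rw [hess_sep, Matrix.det_diagonal]

theorem pd_prod_rpow_at (g : Fin n → ℝ → ℝ) (J : Fin n → Set ℝ) (hJo : ∀ i, IsOpen (J i))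
    (hg : ∀ i, ∀ t ∈ J i, 0 < g i t) (e : ℝ) (i : Fin n) (y : Fin n → ℝ)
    (hy : ∀ k, y k ∈ J k) :
    pd i (fun x => (∏ k, g k (x k)) ^ e) y =
      deriv (fun t => (g i t) ^ e) (y i) * (∏ k ∈ univ.erase i, g k (y k)) ^ e := by
  unfold pd
  have hev : (fun t => (∏ k, g k (Function.update y i t k)) ^ e) =ᶠ[𝓝 (y i)]
      fun t => (g i t) ^ e * (∏ k ∈ univ.erase i, g k (y k)) ^ e := by
    filter_upwards [(hJo i).mem_nhds (hy i)] with t ht
    rw [← Finset.mul_prod_erase _ _ (mem_univ i), Function.update_self]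
    have : ∏ k ∈ univ.erase i, g k (Function.update y i t k) =
        ∏ k ∈ univ.erase i, g k (y k) := by
      apply Finset.prod_congr rfl
      intro k hk
      rw [Function.update_of_ne (Finset.ne_of_mem_erase hk)]
    rw [this, Real.mul_rpow (hg i t ht).le (Finset.prod_nonneg (fun k _ => (hg k _ (hy k)).le))]
  rw [hev.deriv_eq, deriv_mul_const_field]

theorem pd_pd_prod_rpow_at (g : Fin n → ℝ → ℝ) (J : Fin n → Set ℝ) (hJo : ∀ i, IsOpen (J i))
    (hg : ∀ i, ∀ t ∈ J i, 0 < g i t) (e : ℝ) (i : Fin n) (x : Fin n → ℝ)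
    (hx : ∀ k, x k ∈ J k) :
    pd i (pd i (fun x => (∏ k, g k (x k)) ^ e)) x =
      deriv (deriv (fun t => (g i t) ^ e)) (x i) * (∏ k ∈ univ.erase i, g k (x k)) ^ e := by
  have hev : (fun t => pd i (fun x => (∏ k, g k (x k)) ^ e) (Function.update x i t))
      =ᶠ[𝓝 (x i)]
      fun t => deriv (fun t => (g i t) ^ e) t * (∏ k ∈ univ.erase i, g k (x k)) ^ e := by
    filter_upwards [(hJo i).mem_nhds (hx i)] with t ht
    have hy : ∀ k, Function.update x i t k ∈ J k := by
      intro k
      by_cases hk : k = i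
      · subst hk
        rw [Function.update_self]
        exact ht
      · rw [Function.update_of_ne hk]
        exact hx k
    rw [pd_prod_rpow_at g J hJo hg e i _ hy, Function.update_self]
    congr 2
    apply Finset.prod_congr rfl
    intro k hk
    rw [Function.update_of_ne (Finset.ne_of_mem_erase hk)]
  have h1 : pd i (pd i (fun x => (∏ k, g k (x k)) ^ e)) x =
      deriv (fun t => pd i (fun x => (∏ k, g k (x k)) ^ e) (Function.update x i t)) (x i) := rfl
  rw [h1, hev.deriv_eq, deriv_mul_const_field]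

/-- The affine maximal operator on a separable function, in closed form, at a point all of
whose coordinates lie in open sets on which the `f_i''` are positive. -/
theorem affineMaximalOp_sep_at (f : Fin n → ℝ → ℝ) (J : Fin n → Set ℝ)
    (hJo : ∀ i, IsOpen (J i)) (hg : ∀ i, ∀ t ∈ J i, 0 < deriv (deriv (f i)) t)
    (x : Fin n → ℝ) (hx : ∀ k, x k ∈ J k) :
    affineMaximalOp (fun y => ∑ i, f i (y i)) x =
      ∑ i, (∏ k ∈ univ.erase i, deriv (deriv (f k)) (x k)) *
        (deriv (deriv (fun t => (deriv (deriv (f i)) t) ^ (-((n : ℝ) + 1) / ((n : ℝ) + 2)))) (x i)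
          * (∏ k ∈ univ.erase i, deriv (deriv (f k)) (x k)) ^
            (-((n : ℝ) + 1) / ((n : ℝ) + 2))) := by
  unfold affineMaximalOp
  rw [hess_sep]
  have hdet : (Matrix.diagonal (fun i => deriv (deriv (f i)) (x i))).det ≠ 0 := by
    rw [Matrix.det_diagonal]
    exact (Finset.prod_pos (fun i _ => hg i _ (hx i))).ne'
  have hadj : (Matrix.diagonal (fun i => deriv (deriv (f i)) (x i))).det •
      (Matrix.diagonal (fun i => deriv (deriv (f i)) (x i)))⁻¹ =
      Matrix.diagonal (fun i => ∏ k ∈ univ.erase i, deriv (deriv (f k)) (x k)) := by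
    rw [Matrix.inv_def, smul_smul, Ring.mul_inverse_cancel _ (isUnit_iff_ne_zero.mpr hdet),
      one_smul, Matrix.adjugate_diagonal]
  rw [hadj]
  apply Finset.sum_congr rfl
  intro i _
  have hinner : ∀ j, j ≠ i →
      (Matrix.diagonal (fun i => ∏ k ∈ univ.erase i, deriv (deriv (f k)) (x k))) i j *
        pd i (pd j (wfun (fun y => ∑ i, f i (y i)))) x = 0 := by
    intro j hj
    rw [Matrix.diagonal_apply_ne _ (Ne.symm hj), zero_mul]
  rw [Finset.sum_eq_single i (fun j _ hj => hinner j hj) (fun h => absurd (mem_univ i) h)]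
  rw [Matrix.diagonal_apply_eq, wfun_sep,
    pd_pd_prod_rpow_at (fun k => deriv (deriv (f k))) J hJo hg _ i x hx]

/-- **Euclidean complete additively separable solutions of the affine maximal equation are
elliptic paraboloids over all of `ℝ^n`.** -/
theorem result (n : ℕ) (hn : 1 ≤ n) (Ω : Set (Fin n → ℝ)) (hΩo : IsOpen Ω)
    (hΩc : Convex ℝ Ω) (hΩne : Ω.Nonempty) (f : Fin n → ℝ → ℝ)
    (hreg : ∀ x ∈ Ω, ∀ i, ContDiffAt ℝ 4 (f i) (x i))
    (hconv : ∀ x ∈ Ω, ∀ i, 0 < deriv (deriv (f i)) (x i))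
    (hAM : ∀ x ∈ Ω, affineMaximalOp (fun y => ∑ i, f i (y i)) x = 0)
    (hcl : IsClosed {p : (Fin n → ℝ) × ℝ | p.1 ∈ Ω ∧ p.2 = ∑ i, f i (p.1 i)}) :
    Ω = Set.univ ∧
      ∃ a b c : Fin n → ℝ, (∀ i, 0 < a i) ∧ ∀ i t, f i t = a i * t ^ 2 + b i * t + c i := by
  set e : ℝ := -((n : ℝ) + 1) / ((n : ℝ) + 2) with he
  have hn1 : (1 : ℝ) ≤ n := by exact_mod_cast hn
  have hn2 : (0 : ℝ) < (n : ℝ) + 2 := by positivity
  have he1 : -1 < e := by
    rw [he, lt_div_iff₀ hn2]
    linarith
  have he2 : e < -(1 / 2) := by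
    rw [he, div_lt_iff₀ hn2]
    linarith
  -- the coordinate projections of Ω
  set J : Fin n → Set ℝ := fun i => (fun x : Fin n → ℝ => x i) '' Ω with hJdef
  have hJo : ∀ i, IsOpen (J i) := fun i => isOpenMap_eval i Ω hΩo
  have hJconv : ∀ i, Convex ℝ (J i) := by
    rintro i _ ⟨x, hx, rfl⟩ _ ⟨y, hy, rfl⟩ a b ha hb hab
    exact ⟨a • x + b • y, hΩc hx hy ha hb hab, rfl⟩
  have hJc : ∀ i, (J i).OrdConnected := fun i => (hJconv i).ordConnected
  have hJne : ∀ i, (J i).Nonempty := fun i => hΩne.image _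
  set g : Fin n → ℝ → ℝ := fun i => deriv (deriv (f i)) with hgdef
  have hregJ : ∀ i, ContDiffOn ℝ 4 (f i) (J i) := by
    rintro i _ ⟨x, hx, rfl⟩
    exact (hreg x hx i).contDiffWithinAt
  have hgJ : ∀ i, ∀ t ∈ J i, 0 < g i t := by
    rintro i _ ⟨x, hx, rfl⟩
    exact hconv x hx i
  have hΩsub : ∀ x ∈ Ω, ∀ i, x i ∈ J i := fun x hx i => ⟨x, hx, rfl⟩
  -- Ω is the whole box
  have hbox : ∀ x : Fin n → ℝ, (∀ i, x i ∈ J i) → x ∈ Ω := by
    have hpre : IsPreconnected (Set.pi Set.univ J) :=
      (convex_pi (fun i _ => hJconv i)).isPreconnected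
    have hsub : Set.pi Set.univ J ⊆ Ω := by
      apply hpre.subset_of_closure_inter_subset hΩo
      · obtain ⟨x0, hx0⟩ := hΩne
        exact ⟨x0, fun i _ => hΩsub x0 hx0 i, hx0⟩
      · rintro x ⟨hxcl, hxbox⟩
        obtain ⟨xs, hxs, hlim⟩ := mem_closure_iff_seq_limit.1 hxcl
        have hcont : Tendsto (fun y : Fin n → ℝ => ∑ i, f i (y i)) (𝓝 x)
            (𝓝 (∑ i, f i (x i))) := by
          apply tendsto_finsetSum
          intro i _
          have hxi : x i ∈ J i := hxbox i (Set.mem_univ i)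
          have hci : ContinuousAt (f i) (x i) :=
            ((hregJ i) (x i) hxi).continuousWithinAt.continuousAt ((hJo i).mem_nhds hxi)
          exact hci.tendsto.comp (continuous_apply i).continuousAt
        have hmem : ((x, ∑ i, f i (x i)) : (Fin n → ℝ) × ℝ) ∈
            {p : (Fin n → ℝ) × ℝ | p.1 ∈ Ω ∧ p.2 = ∑ i, f i (p.1 i)} := by
          refine hcl.mem_of_tendsto (hlim.prodMk_nhds (hcont.comp hlim))
            (Filter.Eventually.of_forall fun k => ?_)
          exact ⟨hxs k, rfl⟩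
        exact hmem.1
    intro x hx
    exact hsub (fun i _ => hx i)
  -- the reduced equation
  set φ : Fin n → ℝ → ℝ := fun i t => (g i t) ^ e with hφdef
  set ψ : Fin n → ℝ → ℝ := fun i t => deriv (deriv (φ i)) t / (g i t * (g i t) ^ e) with hψdef
  have hred : ∀ x : Fin n → ℝ, (∀ i, x i ∈ J i) → ∑ i, ψ i (x i) = 0 := by
    intro x hx
    have h0 := hAM x (hbox x hx)
    rw [affineMaximalOp_sep_at f J hJo hgJ x hx] at h0
    set P : ℝ := ∏ k, g k (x k) with hP
    have hPpos : 0 < P := Finset.prod_pos (fun k _ => hgJ k (x k) (hx k))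
    have hPe : 0 < P * P ^ e := mul_pos hPpos (Real.rpow_pos_of_pos hPpos e)
    have hterm : ∀ i, (∏ k ∈ univ.erase i, g k (x k)) *
        (deriv (deriv (φ i)) (x i) * (∏ k ∈ univ.erase i, g k (x k)) ^ e) =
        (P * P ^ e) * ψ i (x i) := by
      intro i
      have hgi : 0 < g i (x i) := hgJ i (x i) (hx i)
      have hC : ∏ k ∈ univ.erase i, g k (x k) = P / g i (x i) := by
        rw [hP, ← Finset.mul_prod_erase _ _ (mem_univ i)]
        field_simp [hgi.ne']
      rw [hC, Real.div_rpow hPpos.le hgi.le]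
      have h1 : (g i (x i)) ≠ 0 := hgi.ne'
      have h2 : (g i (x i)) ^ e ≠ 0 := (Real.rpow_pos_of_pos hgi e).ne'
      simp only [hψdef]
      field_simp
    have hsum : ∑ i, (∏ k ∈ univ.erase i, g k (x k)) *
        (deriv (deriv (φ i)) (x i) * (∏ k ∈ univ.erase i, g k (x k)) ^ e) =
        (P * P ^ e) * ∑ i, ψ i (x i) := by
      rw [Finset.mul_sum]
      exact Finset.sum_congr rfl (fun i _ => hterm i)
    have h0' : (P * P ^ e) * ∑ i, ψ i (x i) = 0 := by
      rw [← hsum]; exact h0
    rcases mul_eq_zero.mp h0' with h | h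
    · exact absurd h hPe.ne'
    · exact h
  obtain ⟨x0, hx0Ω⟩ := hΩne
  have hx0 : ∀ i, x0 i ∈ J i := hΩsub x0 hx0Ω
  have hupd : ∀ i, ∀ t ∈ J i, ∀ k, Function.update x0 i t k ∈ J k := by
    intro i t ht k
    by_cases hk : k = i
    · subst hk
      rw [Function.update_self]
      exact ht
    · rw [Function.update_of_ne hk]
      exact hx0 k
  have hconst : ∀ i, ∀ t ∈ J i, ψ i t = ψ i (x0 i) := by
    intro i t ht
    have h1 := hred (Function.update x0 i t) (hupd i t ht)
    have h2 := hred x0 hx0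
    rw [← Finset.add_sum_erase _ _ (mem_univ i)] at h1 h2
    have h3 : ∑ k ∈ univ.erase i, ψ k (Function.update x0 i t k) =
        ∑ k ∈ univ.erase i, ψ k (x0 k) := by
      apply Finset.sum_congr rfl
      intro k hk
      rw [Function.update_of_ne (Finset.ne_of_mem_erase hk)]
    rw [h3, Function.update_self] at h1
    linarith
  have hsum0 : ∑ i, ψ i (x0 i) = 0 := hred x0 hx0
  have hφ'' : ∀ i, ∀ t ∈ J i, deriv (deriv (φ i)) t = ψ i (x0 i) * (g i t * (g i t) ^ e) := by
    intro i t ht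
    have hpos : 0 < g i t * (g i t) ^ e :=
      mul_pos (hgJ i t ht) (Real.rpow_pos_of_pos (hgJ i t ht) e)
    rw [← hconst i t ht]
    simp only [hψdef]
    rw [div_mul_cancel₀ _ hpos.ne']
  -- closedness of the graph, one coordinate at a time
  have hclos : ∀ i, ∀ (τ : ℕ → ℝ) (β : ℝ), (∀ k, τ k ∈ J i) → Tendsto τ atTop (𝓝 β) →
      (∃ M : ℝ, ∀ k, |f i (τ k)| ≤ M) → β ∈ J i := by
    rintro i τ β hτ hlim ⟨M, hM⟩
    set R : ℝ := ∑ k ∈ univ.erase i, f k (x0 k) with hR
    have hval : ∀ k, ∑ j, f j (Function.update x0 i (τ k) j) = f i (τ k) + R := by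
      intro k
      rw [← Finset.add_sum_erase _ _ (mem_univ i), Function.update_self]
      congr 1
      apply Finset.sum_congr rfl
      intro j hj
      rw [Function.update_of_ne (Finset.ne_of_mem_erase hj)]
    have hbd : ∀ k, f i (τ k) + R ∈ Metric.closedBall (0 : ℝ) (M + |R|) := by
      intro k
      rw [Metric.mem_closedBall, Real.dist_eq, sub_zero]
      exact (abs_add_le _ _).trans (add_le_add (hM k) le_rfl)
    obtain ⟨L, -, θ, hθ, hLlim⟩ := tendsto_subseq_of_bounded Metric.isBounded_closedBall hbd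
    have hXlim : Tendsto (fun k => Function.update x0 i (τ (θ k))) atTop
        (𝓝 (Function.update x0 i β)) := by
      rw [tendsto_pi_nhds]
      intro j
      by_cases hj : j = i
      · subst hj
        simp only [Function.update_self]
        exact hlim.comp hθ.tendsto_atTop
      · simp only [Function.update_of_ne hj]
        exact tendsto_const_nhds
    have hmem : ((Function.update x0 i β, L) : (Fin n → ℝ) × ℝ) ∈
        {p : (Fin n → ℝ) × ℝ | p.1 ∈ Ω ∧ p.2 = ∑ i, f i (p.1 i)} := by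
      refine hcl.mem_of_tendsto (hXlim.prodMk_nhds hLlim)
        (Filter.Eventually.of_forall fun k => ?_)
      refine ⟨hbox _ (hupd i _ (hτ (θ k))), ?_⟩
      exact (hval (θ k)).symm
    have h : Function.update x0 i β i ∈ J i := hΩsub _ hmem.1 i
    rwa [Function.update_self] at h
  -- the one-variable conclusion
  have hone : ∀ i, ψ i (x0 i) ≤ 0 → J i = Set.univ ∧ ∀ t, g i t = g i 0 := by
    intro i hci
    apply Vale.Agent.Helper18.P252.oneDim e he1 he2 (J i) (hJo i) (hJc i) (hJne i) (f i)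
      (hregJ i) (hgJ i) ?_ (hclos i)
    intro t ht
    have h := hφ'' i t ht
    have hpos : 0 < g i t * (g i t) ^ e :=
      mul_pos (hgJ i t ht) (Real.rpow_pos_of_pos (hgJ i t ht) e)
    have h2 : deriv (deriv (φ i)) t ≤ 0 := by
      rw [h]
      exact mul_nonpos_of_nonpos_of_nonneg hci hpos.le
    exact h2
  have hnonneg : ∀ i, 0 ≤ ψ i (x0 i) := by
    intro i
    by_contra hneg
    rw [not_le] at hneg
    obtain ⟨hJu, hgc⟩ := hone i hneg.le
    have hφc : φ i = fun _ => (g i 0) ^ e := by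
      funext s
      simp only [hφdef]
      rw [hgc s]
    have h0 : deriv (deriv (φ i)) 0 = 0 := by
      rw [hφc]
      simp
    have h0J : (0 : ℝ) ∈ J i := by
      rw [hJu]
      exact Set.mem_univ 0
    rw [hφ'' i 0 h0J] at h0
    have hpos : 0 < g i 0 * (g i 0) ^ e :=
      mul_pos (hgJ i 0 h0J) (Real.rpow_pos_of_pos (hgJ i 0 h0J) e)
    rcases mul_eq_zero.mp h0 with h | h
    · linarith
    · exact absurd h hpos.ne'
  have hall0 : ∀ i, ψ i (x0 i) = 0 := fun i =>
    (Finset.sum_eq_zero_iff_of_nonneg (fun i _ => hnonneg i)).mp hsum0 i (mem_univ i)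
  have hJu : ∀ i, J i = Set.univ := fun i => (hone i (hall0 i).le).1
  have hgc : ∀ i t, g i t = g i 0 := fun i => (hone i (hall0 i).le).2
  refine ⟨?_, fun i => g i 0 / 2, fun i => deriv (f i) 0, fun i => f i 0, fun i => ?_,
    fun i t => ?_⟩
  · ext x
    simp only [Set.mem_univ, iff_true]
    apply hbox x
    intro i
    rw [hJu i]
    exact Set.mem_univ _
  · have h0J : (0 : ℝ) ∈ J i := by
      rw [hJu i]
      exact Set.mem_univ 0
    have := hgJ i 0 h0J
    positivity
  · have hfc : ContDiff ℝ 4 (f i) := by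
      rw [← contDiffOn_univ, ← hJu i]
      exact hregJ i
    have hfd : Differentiable ℝ (f i) := hfc.differentiable (by norm_num)
    have hf1 : ContDiff ℝ 3 (deriv (f i)) :=
      ContDiff.deriv' (by
        have : ((3 : WithTop ℕ∞) + 1) = 4 := by norm_num
        rw [this]; exact hfc)
    have hfdd : Differentiable ℝ (deriv (f i)) := hf1.differentiable (by norm_num)
    exact Vale.Agent.Helper18.P252.quadratic_of_deriv2_const (f i) hfd hfdd (g i 0)
      (fun t => hgc i t) t

end Vale.Agent.Results.P252.SeparableComplete
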