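import Mathlib
import Vale.Agent.Results.P252.SeparableComplete

/-!
# P252 (affine Bernstein problem): Euclidean complete additively separable solutions,
# stated with Mathlib notions only

Let `Ω ⊆ ℝ^n` (`n ≥ 1`) be a nonempty open convex set and let `u(x) = ∑_i f_i(x_i)` on `Ω`, with
every `f_i` of class `C^4` and `f_i'' > 0` at the coordinates of the points of `Ω` (so `D²u` is
positive definite on `Ω`).  If `u` solves the affine maximal equation (AM) in `Ω` and the graph
of `u` over `Ω` is a closed subset of `ℝ^n × ℝ` (for a convex function this is Euclidean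
completeness of the graph), then `Ω = ℝ^n` and every `f_i` is a quadratic polynomial with
positive leading coefficient: the graph is an elliptic paraboloid.

This is the theorem of the hand-in `SeparableComplete`, restated so that the statement uses no
definition of this project: the left-hand side of (AM) is written out inside the hypothesis
`hAM`, where

* `u y = ∑ i, f i (y i)`;
* `pd i v y` is the derivative in the `i`-th coordinate of `v` at `y`, that is the derivative
  at `t = y i` of `t ↦ v (y with its i-th coordinate replaced by t)`;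
* `H y` is the Hessian matrix `(pd i (pd j u) y)_{ij}` of `u` at `y`;
* `w y = (det (H y)) ^ (-(n+1)/(n+2))`;
* the equation is `∑_{i,j} (det (H x) • (H x)⁻¹)_{ij} * pd i (pd j w) x = 0`.
-/

namespace Vale.Agent.Results.P252.SeparableCompletePlain

open Finset

theorem result (n : ℕ) (hn : 1 ≤ n) (Ω : Set (Fin n → ℝ)) (hΩo : IsOpen Ω)
    (hΩc : Convex ℝ Ω) (hΩne : Ω.Nonempty) (f : Fin n → ℝ → ℝ)
    (hreg : ∀ x ∈ Ω, ∀ i, ContDiffAt ℝ 4 (f i) (x i))
    (hconv : ∀ x ∈ Ω, ∀ i, 0 < deriv (deriv (f i)) (x i))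
    (hAM : ∀ x ∈ Ω,
      let u : (Fin n → ℝ) → ℝ := fun y => ∑ i, f i (y i)
      let pd : Fin n → ((Fin n → ℝ) → ℝ) → (Fin n → ℝ) → ℝ :=
        fun i v y => deriv (fun t => v (Function.update y i t)) (y i)
      let H : (Fin n → ℝ) → Matrix (Fin n) (Fin n) ℝ :=
        fun y => Matrix.of fun i j => pd i (pd j u) y
      let w : (Fin n → ℝ) → ℝ :=
        fun y => (H y).det ^ (-((n : ℝ) + 1) / ((n : ℝ) + 2))
      ∑ i, ∑ j, ((H x).det • (H x)⁻¹) i j * pd i (pd j w) x = 0)
    (hcl : IsClosed {p : (Fin n → ℝ) × ℝ | p.1 ∈ Ω ∧ p.2 = ∑ i, f i (p.1 i)}) :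
    Ω = Set.univ ∧
      ∃ a b c : Fin n → ℝ, (∀ i, 0 < a i) ∧ ∀ i t, f i t = a i * t ^ 2 + b i * t + c i :=
  Vale.Agent.Results.P252.SeparableComplete.result n hn Ω hΩo hΩc hΩne f hreg hconv
    (fun x hx => hAM x hx) hcl

end Vale.Agent.Results.P252.SeparableCompletePlain
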