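import Mathlib

/-!
# P252 (affine Bernstein problem): entire additively separable solutions are quadratic

If `u(x) = ∑_i f_i(x_i)` on `ℝ^n` with `f_i ∈ C^4(ℝ)` and `f_i'' > 0` (so `D²u` is positive
definite) solves the affine maximal equation (AM) on all of `ℝ^n`, then every `f_i` is a
quadratic polynomial with positive leading coefficient, i.e. the graph of `u` is an
elliptic paraboloid.
-/

namespace Vale.Agent.Results.P252.SeparableEntire

open Finset

variable {n : ℕ}

/-- Partial derivative `∂_i u (x)`: the derivative at `t = x i` of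
`t ↦ u (x with its i-th coordinate replaced by t)`. -/
noncomputable def pd (i : Fin n) (u : (Fin n → ℝ) → ℝ) (x : Fin n → ℝ) : ℝ :=
  deriv (fun t => u (Function.update x i t)) (x i)

/-- The Hessian matrix `D²u (x) = (∂_i ∂_j u (x))_{ij}`. -/
noncomputable def hess (u : (Fin n → ℝ) → ℝ) (x : Fin n → ℝ) : Matrix (Fin n) (Fin n) ℝ :=
  Matrix.of fun i j => pd i (pd j u) x

/-- `w = (det D²u)^{-(n+1)/(n+2)}`. -/
noncomputable def wfun (u : (Fin n → ℝ) → ℝ) (x : Fin n → ℝ) : ℝ :=
  (hess u x).det ^ (-((n : ℝ) + 1) / ((n : ℝ) + 2))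

/-- The left-hand side of the affine maximal equation (AM):
`∑_{i,j} U^{ij} ∂_{ij} w`, where `U = det(D²u) (D²u)⁻¹`. -/
noncomputable def affineMaximalOp (u : (Fin n → ℝ) → ℝ) (x : Fin n → ℝ) : ℝ :=
  ∑ i, ∑ j, ((hess u x).det • (hess u x)⁻¹) i j * pd i (pd j (wfun u)) x

/-! ### One-variable lemmas -/

/-- A positive function on `ℝ` with nonpositive second derivative is constant. -/
theorem deriv_eq_zero_of_pos_of_concave (φ : ℝ → ℝ) (h1 : Differentiable ℝ φ)
    (h2 : Differentiable ℝ (deriv φ)) (hpos : ∀ t, 0 < φ t)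
    (hcc : ∀ t, deriv (deriv φ) t ≤ 0) (t0 : ℝ) : deriv φ t0 = 0 := by
  have hanti : Antitone (deriv φ) := antitone_of_deriv_nonpos h2 hcc
  by_contra hne
  rcases lt_or_gt_of_ne hne with hs | hs
  · -- negative slope: go right
    set s := deriv φ t0 with hsdef
    have key : ∀ y, t0 ≤ y → φ y - φ t0 ≤ s * (y - t0) := by
      intro y hy
      have := (convex_Ici t0).image_sub_le_mul_sub_of_deriv_le (f := φ) (C := s)
        h1.continuous.continuousOn h1.differentiableOn
        (fun x hx => by
          rw [interior_Ici] at hx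
          exact hanti (le_of_lt hx)) t0 Set.self_mem_Ici y hy hy
      exact this
    have hy := key (t0 + (φ t0 / (-s) + 1)) (by
      have : 0 < φ t0 / (-s) := div_pos (hpos t0) (by linarith)
      linarith)
    have hp := hpos (t0 + (φ t0 / (-s) + 1))
    have e : s * (t0 + (φ t0 / (-s) + 1) - t0) = -φ t0 + s := by
      have hs' : s ≠ 0 := ne_of_lt hs
      field_simp
      ring
    rw [e] at hy
    linarith
  · -- positive slope: go left
    set s := deriv φ t0 with hsdef
    have key : ∀ y, y ≤ t0 → s * (t0 - y) ≤ φ t0 - φ y := by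
      intro y hy
      have := (convex_Iic t0).mul_sub_le_image_sub_of_le_deriv (f := φ) (C := s)
        h1.continuous.continuousOn h1.differentiableOn
        (fun x hx => by
          rw [interior_Iic] at hx
          exact hanti (le_of_lt hx)) y hy t0 Set.self_mem_Iic hy
      exact this
    have hy := key (t0 - (φ t0 / s + 1)) (by
      have : 0 < φ t0 / s := div_pos (hpos t0) hs
      linarith)
    have hp := hpos (t0 - (φ t0 / s + 1))
    have e : s * (t0 - (t0 - (φ t0 / s + 1))) = φ t0 + s := by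
      have hs' : s ≠ 0 := ne_of_gt hs
      field_simp
      ring
    rw [e] at hy
    linarith

/-- A function with constant second derivative `a` is a quadratic polynomial. -/
theorem quadratic_of_deriv2_const (f : ℝ → ℝ) (hf : Differentiable ℝ f)
    (hf' : Differentiable ℝ (deriv f)) (a : ℝ) (ha : ∀ t, deriv (deriv f) t = a) (t : ℝ) :
    f t = a / 2 * t ^ 2 + deriv f 0 * t + f 0 := by
  -- first: deriv f t = a * t + deriv f 0
  have hd1 : ∀ s, deriv f s = a * s + deriv f 0 := by
    intro s
    have hdiff : Differentiable ℝ (fun s => deriv f s - a * s) := by fun_prop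
    have hz : ∀ s, deriv (fun s => deriv f s - a * s) s = 0 := by
      intro s
      have h1 : HasDerivAt (fun s => deriv f s - a * s) (deriv (deriv f) s - a * 1) s :=
        (hf' s).hasDerivAt.sub ((hasDerivAt_id s).const_mul a)
      rw [h1.deriv, ha]; ring
    have := is_const_of_deriv_eq_zero hdiff hz s 0
    simp at this
    linarith
  have hdiff : Differentiable ℝ (fun s => f s - (a / 2 * s ^ 2 + deriv f 0 * s)) := by fun_prop
  have hz : ∀ s, deriv (fun s => f s - (a / 2 * s ^ 2 + deriv f 0 * s)) s = 0 := by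
    intro s
    have h1 : HasDerivAt (fun s => f s - (a / 2 * s ^ 2 + deriv f 0 * s))
        (deriv f s - (a / 2 * (2 * s) + deriv f 0 * 1)) s := by
      have hsq : HasDerivAt (fun s : ℝ => s ^ 2) (2 * s) s := by
        simpa using hasDerivAt_pow 2 s
      exact (hf s).hasDerivAt.sub ((hsq.const_mul (a / 2)).add ((hasDerivAt_id s).const_mul _))
    rw [h1.deriv, hd1]; ring
  have := is_const_of_deriv_eq_zero hdiff hz t 0
  simp at this
  linarith

/-! ### Partial derivatives of separable functions -/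

theorem pd_coord (i j : Fin n) (F : ℝ → ℝ) (x : Fin n → ℝ) :
    pd i (fun y => F (y j)) x = if i = j then deriv F (x i) else 0 := by
  unfold pd
  by_cases h : i = j
  · subst h
    simp [Function.update_self]
  · have : (fun t => F (Function.update x i t j)) = fun _ => F (x j) := by
      funext t
      rw [Function.update_of_ne (Ne.symm h)]
    rw [this]; simp [h]

theorem pd_sep (f : Fin n → ℝ → ℝ) (j : Fin n) :
    pd j (fun y => ∑ i, f i (y i)) = fun x => deriv (f j) (x j) := by
  funext x
  unfold pd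
  have : (fun t => ∑ i, f i (Function.update x j t i)) =
      fun t => f j t + ∑ i ∈ univ.erase j, f i (x i) := by
    funext t
    rw [← Finset.add_sum_erase _ _ (mem_univ j)]
    congr 1
    · simp
    · apply Finset.sum_congr rfl
      intro i hi
      rw [Function.update_of_ne (Finset.ne_of_mem_erase hi)]
  rw [this, deriv_add_const]

theorem hess_sep (f : Fin n → ℝ → ℝ) (x : Fin n → ℝ) :
    hess (fun y => ∑ i, f i (y i)) x =
      Matrix.diagonal (fun i => deriv (deriv (f i)) (x i)) := by
  ext i j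
  simp only [hess, Matrix.of_apply]
  rw [pd_sep, pd_coord]
  by_cases h : i = j
  · subst h; simp
  · simp [h]

theorem wfun_sep (f : Fin n → ℝ → ℝ) :
    wfun (fun y => ∑ i, f i (y i)) =
      fun x => (∏ i, deriv (deriv (f i)) (x i)) ^ (-((n : ℝ) + 1) / ((n : ℝ) + 2)) := by
  funext x
  unfold wfun
  rw [hess_sep, Matrix.det_diagonal]

theorem pd_prod_rpow (g : Fin n → ℝ → ℝ) (hg : ∀ i t, 0 < g i t) (e : ℝ) (i : Fin n) :
    pd i (fun x => (∏ k, g k (x k)) ^ e) =
      fun x => deriv (fun t => (g i t) ^ e) (x i) * (∏ k ∈ univ.erase i, g k (x k)) ^ e := by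
  funext x
  unfold pd
  have : (fun t => (∏ k, g k (Function.update x i t k)) ^ e) =
      fun t => (g i t) ^ e * (∏ k ∈ univ.erase i, g k (x k)) ^ e := by
    funext t
    rw [← Finset.mul_prod_erase _ _ (mem_univ i), Function.update_self]
    have : ∏ k ∈ univ.erase i, g k (Function.update x i t k) = ∏ k ∈ univ.erase i, g k (x k) := by
      apply Finset.prod_congr rfl
      intro k hk
      rw [Function.update_of_ne (Finset.ne_of_mem_erase hk)]
    rw [this, Real.mul_rpow (hg i t).le (Finset.prod_nonneg (fun k _ => (hg k _).le))]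
  rw [this, deriv_mul_const_field]

theorem pd_mul_erase (g : Fin n → ℝ → ℝ) (e : ℝ) (i : Fin n) (D : ℝ → ℝ) (x : Fin n → ℝ) :
    pd i (fun x => D (x i) * (∏ k ∈ univ.erase i, g k (x k)) ^ e) x =
      deriv D (x i) * (∏ k ∈ univ.erase i, g k (x k)) ^ e := by
  unfold pd
  have : (fun t => D (Function.update x i t i) *
      (∏ k ∈ univ.erase i, g k (Function.update x i t k)) ^ e)
      = fun t => D t * (∏ k ∈ univ.erase i, g k (x k)) ^ e := by
    funext t
    rw [Function.update_self]
    congr 2
    apply Finset.prod_congr rfl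
    intro k hk
    rw [Function.update_of_ne (Finset.ne_of_mem_erase hk)]
  rw [this, deriv_mul_const_field]

/-- The affine maximal operator on a separable function, in closed form. -/
theorem affineMaximalOp_sep (f : Fin n → ℝ → ℝ) (hconv : ∀ i t, 0 < deriv (deriv (f i)) t)
    (x : Fin n → ℝ) :
    affineMaximalOp (fun y => ∑ i, f i (y i)) x =
      ∑ i, (∏ k ∈ univ.erase i, deriv (deriv (f k)) (x k)) *
        (deriv (deriv (fun t => (deriv (deriv (f i)) t) ^ (-((n : ℝ) + 1) / ((n : ℝ) + 2)))) (x i)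
          * (∏ k ∈ univ.erase i, deriv (deriv (f k)) (x k)) ^ (-((n : ℝ) + 1) / ((n : ℝ) + 2))) := by
  unfold affineMaximalOp
  rw [hess_sep]
  have hdet : (Matrix.diagonal (fun i => deriv (deriv (f i)) (x i))).det ≠ 0 := by
    rw [Matrix.det_diagonal]
    exact (Finset.prod_pos (fun i _ => hconv i (x i))).ne'
  have hadj : (Matrix.diagonal (fun i => deriv (deriv (f i)) (x i))).det •
      (Matrix.diagonal (fun i => deriv (deriv (f i)) (x i)))⁻¹ =
      Matrix.diagonal (fun i => ∏ k ∈ univ.erase i, deriv (deriv (f k)) (x k)) := by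
    rw [Matrix.inv_def, smul_smul, Ring.mul_inverse_cancel _ (isUnit_iff_ne_zero.mpr hdet), one_smul,
      Matrix.adjugate_diagonal]
  rw [hadj]
  apply Finset.sum_congr rfl
  intro i _
  have hinner : ∀ j, j ≠ i →
      (Matrix.diagonal (fun i => ∏ k ∈ univ.erase i, deriv (deriv (f k)) (x k))) i j *
        pd i (pd j (wfun (fun y => ∑ i, f i (y i)))) x = 0 := by
    intro j hj
    rw [Matrix.diagonal_apply_ne _ (Ne.symm hj), zero_mul]
  rw [Finset.sum_eq_single i (fun j _ hj => hinner j hj) (fun h => absurd (mem_univ i) h)]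
  rw [Matrix.diagonal_apply_eq, wfun_sep, pd_prod_rpow _ hconv, pd_mul_erase]

/-- **Entire additively separable solutions of the affine maximal equation are quadratic.**
Let `u(x) = ∑_i f_i(x_i)` on `ℝ^n`, with every `f_i` of class `C^4` and `f_i'' > 0` everywhere
(so that `D²u = diag(f_i''(x_i))` is positive definite).  If `u` solves (AM) at every point of
`ℝ^n`, then every `f_i` is a quadratic polynomial with positive leading coefficient. -/
theorem result (n : ℕ) (f : Fin n → ℝ → ℝ) (hf : ∀ i, ContDiff ℝ 4 (f i))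
    (hconv : ∀ i t, 0 < deriv (deriv (f i)) t)
    (hAM : ∀ x : Fin n → ℝ, affineMaximalOp (fun y => ∑ i, f i (y i)) x = 0) :
    ∃ a b c : Fin n → ℝ, (∀ i, 0 < a i) ∧ ∀ i t, f i t = a i * t ^ 2 + b i * t + c i := by
  -- notation
  set e : ℝ := -((n : ℝ) + 1) / ((n : ℝ) + 2) with he
  have hn2 : (0 : ℝ) < (n : ℝ) + 2 := by positivity
  have he0 : e ≠ 0 := by
    rw [he]
    have : (0 : ℝ) < (n : ℝ) + 1 := by positivity
    exact div_ne_zero (by linarith) hn2.ne'
  set g : Fin n → ℝ → ℝ := fun i => deriv (deriv (f i)) with hgdef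
  have hg : ∀ i t, 0 < g i t := hconv
  set φ : Fin n → ℝ → ℝ := fun i t => (g i t) ^ e with hφdef
  -- regularity
  have hf1 : ∀ i, ContDiff ℝ 3 (deriv (f i)) := fun i =>
    ContDiff.deriv' (by
      have : ((3 : WithTop ℕ∞) + 1) = 4 := by norm_num
      rw [this]; exact hf i)
  have hg2 : ∀ i, ContDiff ℝ 2 (g i) := fun i =>
    ContDiff.deriv' (by
      have : ((2 : WithTop ℕ∞) + 1) = 3 := by norm_num
      rw [this]; exact hf1 i)
  have hφ2 : ∀ i, ContDiff ℝ 2 (φ i) := fun i =>
    (hg2 i).rpow_const_of_ne (fun t => (hg i t).ne')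
  have hφd : ∀ i, Differentiable ℝ (φ i) := fun i => (hφ2 i).differentiable (by norm_num)
  have hφ1 : ∀ i, ContDiff ℝ 1 (deriv (φ i)) := fun i =>
    ContDiff.deriv' (by
      have : ((1 : WithTop ℕ∞) + 1) = 2 := by norm_num
      rw [this]; exact hφ2 i)
  have hφdd : ∀ i, Differentiable ℝ (deriv (φ i)) := fun i => (hφ1 i).differentiable (by norm_num)
  have hφpos : ∀ i t, 0 < φ i t := fun i t => Real.rpow_pos_of_pos (hg i t) e
  -- the reduced equation: ∑ ψ_i (x_i) = 0
  set ψ : Fin n → ℝ → ℝ := fun i t => deriv (deriv (φ i)) t / (g i t * (g i t) ^ e) with hψdef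
  have hred : ∀ x : Fin n → ℝ, ∑ i, ψ i (x i) = 0 := by
    intro x
    have h0 := hAM x
    rw [affineMaximalOp_sep f hconv x] at h0
    set P : ℝ := ∏ k, g k (x k) with hP
    have hPpos : 0 < P := Finset.prod_pos (fun k _ => hg k (x k))
    have hPe : 0 < P * P ^ e := mul_pos hPpos (Real.rpow_pos_of_pos hPpos e)
    have hterm : ∀ i, (∏ k ∈ univ.erase i, g k (x k)) *
        (deriv (deriv (φ i)) (x i) * (∏ k ∈ univ.erase i, g k (x k)) ^ e) =
        (P * P ^ e) * ψ i (x i) := by
      intro i
      have hC : ∏ k ∈ univ.erase i, g k (x k) = P / g i (x i) := by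
        rw [hP, ← Finset.mul_prod_erase _ _ (mem_univ i)]
        field_simp [(hg i (x i)).ne']
      rw [hC, Real.div_rpow hPpos.le (hg i (x i)).le]
      have h1 : (g i (x i)) ≠ 0 := (hg i (x i)).ne'
      have h2 : (g i (x i)) ^ e ≠ 0 := (Real.rpow_pos_of_pos (hg i (x i)) e).ne'
      simp only [hψdef]
      field_simp
    have hsum : ∑ i, (∏ k ∈ univ.erase i, g k (x k)) *
        (deriv (deriv (φ i)) (x i) * (∏ k ∈ univ.erase i, g k (x k)) ^ e) =
        (P * P ^ e) * ∑ i, ψ i (x i) := by
      rw [Finset.mul_sum]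
      exact Finset.sum_congr rfl (fun i _ => hterm i)
    have h0' : (P * P ^ e) * ∑ i, ψ i (x i) = 0 := by
      rw [← hsum]; exact h0
    rcases mul_eq_zero.mp h0' with h | h
    · exact absurd h hPe.ne'
    · exact h
  -- each ψ_i is constant
  have hconst : ∀ i t, ψ i t = ψ i 0 := by
    intro i t
    have h1 := hred (Function.update (0 : Fin n → ℝ) i t)
    have h2 := hred (0 : Fin n → ℝ)
    rw [← Finset.add_sum_erase _ _ (mem_univ i)] at h1 h2
    have h3 : ∑ k ∈ univ.erase i, ψ k (Function.update (0 : Fin n → ℝ) i t k) =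
        ∑ k ∈ univ.erase i, ψ k ((0 : Fin n → ℝ) k) := by
      apply Finset.sum_congr rfl
      intro k hk
      rw [Function.update_of_ne (Finset.ne_of_mem_erase hk)]
    rw [h3, Function.update_self] at h1
    simp only [Pi.zero_apply] at h1 h2
    linarith
  have hsum0 : ∑ i, ψ i 0 = 0 := by
    have := hred (0 : Fin n → ℝ)
    simpa using this
  -- φ_i'' = c_i * positive
  have hφ'' : ∀ i t, deriv (deriv (φ i)) t = ψ i 0 * (g i t * (g i t) ^ e) := by
    intro i t
    have hpos : 0 < g i t * (g i t) ^ e := mul_pos (hg i t) (Real.rpow_pos_of_pos (hg i t) e)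
    rw [← hconst i t]
    simp only [hψdef]
    rw [div_mul_cancel₀ _ hpos.ne']
  -- c_i ≤ 0 forces c_i = 0
  have hzero_of_nonpos : ∀ i, ψ i 0 ≤ 0 → ψ i 0 = 0 := by
    intro i hc
    have hcc : ∀ t, deriv (deriv (φ i)) t ≤ 0 := by
      intro t
      rw [hφ'' i t]
      have hpos : 0 < g i t * (g i t) ^ e := mul_pos (hg i t) (Real.rpow_pos_of_pos (hg i t) e)
      exact mul_nonpos_of_nonpos_of_nonneg hc hpos.le
    have hd0 : ∀ t, deriv (φ i) t = 0 :=
      deriv_eq_zero_of_pos_of_concave (φ i) (hφd i) (hφdd i) (hφpos i) hcc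
    have hd0' : deriv (φ i) = fun _ => 0 := funext hd0
    have hdd0 : deriv (deriv (φ i)) 0 = 0 := by rw [hd0']; simp
    rw [hφ'' i 0] at hdd0
    have hpos : 0 < g i 0 * (g i 0) ^ e := mul_pos (hg i 0) (Real.rpow_pos_of_pos (hg i 0) e)
    rcases mul_eq_zero.mp hdd0 with h | h
    · exact h
    · exact absurd h hpos.ne'
  have hnonneg : ∀ i, 0 ≤ ψ i 0 := by
    intro i
    by_contra hneg
    rw [not_le] at hneg
    have := hzero_of_nonpos i hneg.le
    linarith
  have hall0 : ∀ i, ψ i 0 = 0 := fun i =>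
    (Finset.sum_eq_zero_iff_of_nonneg (fun i _ => hnonneg i)).mp hsum0 i (mem_univ i)
  -- hence g_i is constant
  have hgconst : ∀ i t, g i t = g i 0 := by
    intro i t
    have hcc : ∀ t, deriv (deriv (φ i)) t ≤ 0 := by
      intro t
      rw [hφ'' i t, hall0 i, zero_mul]
    have hd0 : ∀ t, deriv (φ i) t = 0 :=
      deriv_eq_zero_of_pos_of_concave (φ i) (hφd i) (hφdd i) (hφpos i) hcc
    have hφc : φ i t = φ i 0 := is_const_of_deriv_eq_zero (hφd i) hd0 t 0
    exact Real.rpow_left_injOn he0 (hg i t).le (hg i 0).le hφc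
  -- conclude
  have hfd : ∀ i, Differentiable ℝ (f i) := fun i => (hf i).differentiable (by norm_num)
  have hfdd : ∀ i, Differentiable ℝ (deriv (f i)) := fun i => (hf1 i).differentiable (by norm_num)
  refine ⟨fun i => g i 0 / 2, fun i => deriv (f i) 0, fun i => f i 0, fun i => ?_, fun i t => ?_⟩
  · have := hg i 0
    positivity
  · exact quadratic_of_deriv2_const (f i) (hfd i) (hfdd i) (g i 0) (fun t => hgconst i t) t

end Vale.Agent.Results.P252.SeparableEntire
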